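import Vale.Agent.P076.R2.H831V.Spec2

open MeasureTheory Complex FourierTransform Filter Topology Set
open scoped ENNReal NNReal

namespace Vale.Agent.P076.R2.H737

open Vale.Agent.P076 Vale.Agent.P076.H791 Vale.Agent.P076.R2 Vale.Agent.P076.R2.H45
open Vale.Agent.P076.R2.H831 Vale.Agent.P076.R2.H831V

/-- Row Z2. -/
theorem stAniF {n : ℕ} (_hn : 1 ≤ n) (h : StAni n) : StAniF n := by
  intro e ε he hε f g hfg hI
  set A : (Fin n → ℝ) → ℝ := fun ξ => |∑ i, ξ i * e i| ^ (1 / 2 + ε) +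
      nrm (ξ - (∑ i, ξ i * e i) • e) ^ (1 + ε) with hA
  have hnrm0 : ∀ ξ : Fin n → ℝ, 0 ≤ nrm ξ := fun ξ => by unfold nrm; positivity
  have hA0 : ∀ ξ, 0 ≤ A ξ := fun ξ => by
    have := hnrm0 (ξ - (∑ i, ξ i * e i) • e)
    simp only [hA]
    positivity
  have hAm : Measurable A := by
    simp only [hA]
    unfold nrm
    fun_prop
  have hMP := h e ε he hε
  have hw : (fun ξ : Fin n → ℝ => ENNReal.ofReal
    (1 + |∑ i, ξ i * e i| ^ (1 / 2 + ε) + nrm (ξ - (∑ i, ξ i * e i) • e) ^ (1 + ε))) =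
      fun ξ => ENNReal.ofReal (1 + A ξ) := by
    funext ξ
    simp only [hA]
    rw [add_assoc]
  rw [hw] at hMP
  refine strong_of_MP (fun ξ => ENNReal.ofReal (1 + A ξ)) (by fun_prop)
    (fun ξ => ENNReal.one_le_ofReal.2 (by linarith [hA0 ξ])) hMP hfg ?_
  have h1 : Integrable fun ξ => ‖g ξ‖ ^ 2 := by
    have := (memLp_two_iff_integrable_sq_norm hfg.2.1.1).1 hfg.2.1
    exact this
  have h2 : Integrable fun ξ => (1 + A ξ) * ‖g ξ‖ ^ 2 := by
    refine (h1.add hI).congr (Filter.Eventually.of_forall fun ξ => ?_)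
    simp only [hA, Pi.add_apply]
    ring
  have h3 := h2.2
  unfold HasFiniteIntegral at h3
  refine lt_of_le_of_lt (le_of_eq ?_) h3
  refine lintegral_congr fun ξ => ?_
  rw [enorm_mul, Real.enorm_of_nonneg (by linarith [hA0 ξ]), enorm_pow, enorm_norm]

end Vale.Agent.P076.R2.H737
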